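import Mathlib
import Vale.Agent.P161.Defs
import Vale.Agent.P161.EP.Final

open MeasureTheory

namespace Vale.Agent.Results.P161.FreeIsingEndpoint

open Vale.Agent.P161

universe u

/-- For every `d ≥ 3` and every `β ≥ 0` with `(d - 1) (tanh β) ^ 2 ≤ 1`, there is exactly one
free zero-field Ising measure on the infinite `d`-regular tree, and it is a factor of IID. -/
theorem result (d : ℕ) (hd : 3 ≤ d) (V : Type u) (G : SimpleGraph V) [G.LocallyFinite]
    (hG : G.IsTree) (hreg : G.IsRegularOfDegree d) (β : ℝ) (hβ : 0 ≤ β)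
    (hθ : ((d : ℝ) - 1) * Real.tanh β ^ 2 ≤ 1) :
    ∃ μ : Measure (V → Bool), IsProbabilityMeasure μ ∧
      (∀ ν : Measure (V → Bool), IsFreeIsing G (Real.tanh β) ν ↔ ν = μ) ∧
      IsFactorOfIID G μ := by
  obtain ⟨μ, h1, h2, h3⟩ := EP.endpoint_main d hd hG hreg β hβ hθ
  exact ⟨μ, h1, h2, h3⟩

end Vale.Agent.Results.P161.FreeIsingEndpoint
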