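import Mathlib
import Vale.Agent.P161.Defs
import Vale.Agent.P161.Limit

open MeasureTheory

namespace Vale.Agent.Results.P161.FreeIsingFIID

open Vale.Agent.P161

universe u

/-- For every `d ≥ 3` and every `β ≥ 0` with `(d - 1) (tanh β) ^ 2 < 1`, there is exactly one
free zero-field Ising measure on the infinite `d`-regular tree, and it is a factor of IID. -/
theorem result (d : ℕ) (_hd : 3 ≤ d) (V : Type u) (G : SimpleGraph V) [G.LocallyFinite]
    (hG : G.IsTree) (hreg : G.IsRegularOfDegree d) (β : ℝ) (hβ : 0 ≤ β)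
    (hθ : ((d : ℝ) - 1) * Real.tanh β ^ 2 < 1) :
    ∃ μ : Measure (V → Bool), IsProbabilityMeasure μ ∧
      (∀ ν : Measure (V → Bool), IsFreeIsing G (Real.tanh β) ν ↔ ν = μ) ∧
      IsFactorOfIID G μ := by
  have h0 : 0 ≤ Real.tanh β := by
    rw [Real.tanh_eq_sinh_div_cosh]
    exact div_nonneg (Real.sinh_nonneg_iff.mpr hβ) (Real.cosh_pos β).le
  have h1 : Real.tanh β < 1 := by
    rw [Real.tanh_eq_sinh_div_cosh, div_lt_one (Real.cosh_pos β)]
    exact Real.sinh_lt_cosh β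
  obtain ⟨μ, hμ⟩ := exists_isTreeIsing hG h0 h1
  have hfree := hμ.isFreeIsing hG
  obtain ⟨γ, hγ, hγ', ρ, hρ, hρ', hcon⟩ := contraction hG hreg hμ h0 h1 hθ
  exact ⟨μ, hμ.isProb, fun ν => ⟨fun hν => hν.unique hG hfree, fun h => h ▸ hfree⟩,
    isFactorOfIID_of_contraction hG hμ hγ hγ' hρ hρ' hcon⟩

end Vale.Agent.Results.P161.FreeIsingFIID
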