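import Mathlib
import Vale.Agent.P161.Defs
import Vale.Agent.P161.EP.Threshold

open MeasureTheory

namespace Vale.Agent.Results.P161.FreeIsingThreshold

open Vale.Agent.P161

universe u

/-- For every `d ≥ 3` and every `β ≥ 0` there is exactly one free zero-field Ising measure `μ` on
the infinite `d`-regular tree, it is a probability measure, and it is a factor of IID if and only
if `tanh β ≤ (d - 1)^(-1/2)`. -/
theorem result (d : ℕ) (hd : 3 ≤ d) (V : Type u) (G : SimpleGraph V) [G.LocallyFinite]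
    (hG : G.IsTree) (hreg : G.IsRegularOfDegree d) (β : ℝ) (hβ : 0 ≤ β) :
    ∃ μ : Measure (V → Bool), IsProbabilityMeasure μ ∧
      (∀ ν : Measure (V → Bool), IsFreeIsing G (Real.tanh β) ν ↔ ν = μ) ∧
      (IsFactorOfIID G μ ↔ Real.tanh β ≤ 1 / √((d : ℝ) - 1)) := by
  obtain ⟨μ, h1, h2, h3⟩ := EP.threshold_main d hd hG hreg β hβ
  refine ⟨μ, h1, h2, h3.trans ?_⟩
  have hd1 : (0 : ℝ) < (d : ℝ) - 1 := by
    have : (3 : ℝ) ≤ d := by exact_mod_cast hd
    linarith
  have ht : 0 ≤ Real.tanh β := by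
    rw [Real.tanh_eq_sinh_div_cosh]
    exact div_nonneg (Real.sinh_nonneg_iff.mpr hβ) (Real.cosh_pos β).le
  have hs : 0 < √((d : ℝ) - 1) := Real.sqrt_pos.2 hd1
  have hsq : √((d : ℝ) - 1) ^ 2 = (d : ℝ) - 1 := Real.sq_sqrt hd1.le
  have e : ((d : ℝ) - 1) * Real.tanh β ^ 2 = (√((d : ℝ) - 1) * Real.tanh β) ^ 2 := by
    rw [mul_pow, hsq]
  rw [e, sq_le_one_iff₀ (by positivity), le_div_iff₀ hs, mul_comm]

end Vale.Agent.Results.P161.FreeIsingThreshold
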